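import Mathlib
import Vale.Agent.P220.R2.H57.Defs

/-!
# P220, row R2: the tangent vectors of the complex Stiefel base
-/

open Set Filter Topology
open scoped ContDiff

namespace Vale.Agent.P220.R2.H114

open Vale.Agent.P220.R2.H57

/-- the equations of the tangent vectors of the complex Stiefel base -/
theorem row_tan {V : Type} [NormedAddCommGroup V] [InnerProductSpace ℝ V] [FiniteDimensional ℝ V]
    {J : V ≃ₗᵢ[ℝ] V} {q v : WithLp 2 (V × V)}
    (hv : v ∈ Tan {x : WithLp 2 (V × V) | ‖x.fst‖ ^ 2 + ‖x.snd‖ ^ 2 = 1 ∧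
      inner ℝ x.fst x.snd = (0 : ℝ) ∧ inner ℝ x.fst (J x.snd) = (0 : ℝ)} q) :
    (inner ℝ q.fst v.fst + inner ℝ q.snd v.snd : ℝ) = 0 ∧
    (inner ℝ q.fst v.snd + inner ℝ v.fst q.snd : ℝ) = 0 ∧
    (inner ℝ q.fst (J v.snd) + inner ℝ v.fst (J q.snd) : ℝ) = 0 := by
  obtain ⟨c, hc, hS, h0, hd⟩ := hv
  have hcd : HasDerivAt c v 0 := by
    rw [← hd]
    exact (hc.differentiable (by simp) 0).hasDerivAt
  have hx : HasDerivAt (fun t => (c t).fst) v.fst 0 := by
    have := ((ContinuousLinearMap.fst ℝ V V).comp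
      (WithLp.prodContinuousLinearEquiv 2 ℝ V V : WithLp 2 (V × V) →L[ℝ] V × V)).hasFDerivAt
      (x := c 0) |>.comp_hasDerivAt (0 : ℝ) hcd
    exact this
  have hy : HasDerivAt (fun t => (c t).snd) v.snd 0 := by
    have := ((ContinuousLinearMap.snd ℝ V V).comp
      (WithLp.prodContinuousLinearEquiv 2 ℝ V V : WithLp 2 (V × V) →L[ℝ] V × V)).hasFDerivAt
      (x := c 0) |>.comp_hasDerivAt (0 : ℝ) hcd
    exact this
  have hJy : HasDerivAt (fun t => J (c t).snd) (J v.snd) 0 := by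
    have := (J.toContinuousLinearEquiv : V →L[ℝ] V).hasFDerivAt (x := (c 0).snd)
      |>.comp_hasDerivAt (0 : ℝ) hy
    exact this
  refine ⟨?_, ?_, ?_⟩
  · have h1 := (hx.inner ℝ hx).add (hy.inner ℝ hy)
    have h2 : ((fun t => inner ℝ (c t).fst (c t).fst) + fun t => inner ℝ (c t).snd (c t).snd) =
        fun _ : ℝ => (1 : ℝ) := by
      funext t
      have := (hS t).1
      simp only [Pi.add_apply]
      rw [real_inner_self_eq_norm_sq, real_inner_self_eq_norm_sq]
      exact this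
    rw [h2] at h1
    have h3 := h1.unique (hasDerivAt_const (0 : ℝ) (1 : ℝ))
    rw [h0, real_inner_comm q.fst v.fst, real_inner_comm q.snd v.snd] at h3
    linarith
  · have h1 := hx.inner ℝ hy
    have h2 : (fun t => inner ℝ (c t).fst (c t).snd) = fun _ : ℝ => (0 : ℝ) := by
      funext t
      exact (hS t).2.1
    rw [h2] at h1
    have h3 := h1.unique (hasDerivAt_const (0 : ℝ) (0 : ℝ))
    rw [h0] at h3
    exact h3
  · have h1 := hx.inner ℝ hJy
    have h2 : (fun t => inner ℝ (c t).fst (J (c t).snd)) = fun _ : ℝ => (0 : ℝ) := by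
      funext t
      exact (hS t).2.2
    rw [h2] at h1
    have h3 := h1.unique (hasDerivAt_const (0 : ℝ) (0 : ℝ))
    rw [h0] at h3
    exact h3

end Vale.Agent.P220.R2.H114
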